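import Vale.Agent.P369.Bd3.B2
import Vale.Agent.P369.H712.LogMean

/-!
P369, finite-matrix track (FD): common definitions.  Everything is a finite matrix; the Fock space
enters only through the structure `Split`.
-/

set_option linter.all false

namespace Vale.Agent.P369.FD

open Matrix
open Vale.Agent.P369 (Conf up down ampn g)
open Vale.Agent.P369A (Ct)
open Vale.Agent.P369.H712 (lm)
open scoped Kronecker ComplexOrder

noncomputable section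

/-! ### matrices -/

section matrices

variable {ι ι' κ ε : Type} [Fintype ι] [DecidableEq ι] [Fintype ι'] [DecidableEq ι']
  [Fintype κ] [DecidableEq κ] [Fintype ε] [DecidableEq ε]

/-- density matrices -/
def IsDM (A : Matrix ι ι ℂ) : Prop := A.PosSemidef ∧ A.trace = 1

/-- the matrix logarithm -/
def Lg (A : Matrix ι ι ℂ) : Matrix ι ι ℂ := cfc Real.log A

/-- the entropy `Tr f(A)`, `f(x) = -x log x` (also for matrices of trace `≠ 1`) -/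
abbrev ent (A : Matrix ι ι ℂ) : ℝ := Vale.Agent.P369V.ent A

/-- partial trace over the second factor -/
def ptrR (T : Matrix (κ × ε) (κ × ε) ℂ) : Matrix κ κ ℂ := fun k k' => ∑ l, T (k, l) (k', l)

/-- partial trace over the first factor -/
def ptrL (T : Matrix (κ × ε) (κ × ε) ℂ) : Matrix ε ε ℂ := fun l l' => ∑ k, T (k, l) (k, l')

/-- the output `Tr_ε W (A ⊗ B) W†` -/
def outp (W : Matrix (κ × ε) (ι × ι') ℂ) (A : Matrix ι ι ℂ) (B : Matrix ι' ι' ℂ) : Matrix κ κ ℂ :=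
  ptrR (W * (A ⊗ₖ B) * Wᴴ)

/-- the dual channel to input `A` (the other input being `B`): `Tr (X * EA W B Z) = Tr (outp W X B * Z)` -/
def EA (W : Matrix (κ × ε) (ι × ι') ℂ) (B : Matrix ι' ι' ℂ) (Z : Matrix κ κ ℂ) : Matrix ι ι ℂ :=
  ptrR (((1 : Matrix ι ι ℂ) ⊗ₖ B) * (Wᴴ * (Z ⊗ₖ (1 : Matrix ε ε ℂ)) * W))

/-- the dual channel to input `B` (the other input being `A`) -/
def EB (W : Matrix (κ × ε) (ι × ι') ℂ) (A : Matrix ι ι ℂ) (Z : Matrix κ κ ℂ) : Matrix ι' ι' ℂ :=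
  ptrL ((A ⊗ₖ (1 : Matrix ι' ι' ℂ)) * (Wᴴ * (Z ⊗ₖ (1 : Matrix ε ε ℂ)) * W))

/-- the two inputs exchanged: `outp (sw W) B A = outp W A B`, `EA (sw W) A = EB W A` -/
def sw (W : Matrix (κ × ε) (ι × ι') ℂ) : Matrix (κ × ε) (ι' × ι) ℂ := W.submatrix id Prod.swap

/-- centred dual channel -/
def EAc (W : Matrix (κ × ε) (ι × ι') ℂ) (A : Matrix ι ι ℂ) (B : Matrix ι' ι' ℂ) (Z : Matrix κ κ ℂ) :
    Matrix ι ι ℂ := EA W B Z - (outp W A B * Z).trace • (1 : Matrix ι ι ℂ)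

/-- centred dual channel -/
def EBc (W : Matrix (κ × ε) (ι × ι') ℂ) (A : Matrix ι ι ℂ) (B : Matrix ι' ι' ℂ) (Z : Matrix κ κ ℂ) :
    Matrix ι' ι' ℂ := EB W A Z - (outp W A B * Z).trace • (1 : Matrix ι' ι' ℂ)

/-- spectral double sum `∑_{kl} φ(p_k, p_l) |⟨u_k, Z u_l⟩|²` in the eigenbasis of `A` -/
def dform (φ : ℝ → ℝ → ℝ) {A : Matrix ι ι ℂ} (hA : A.IsHermitian) (Z : Matrix ι ι ℂ) : ℝ :=
  ∑ k, ∑ l, φ (hA.eigenvalues k) (hA.eigenvalues l) *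
    ‖((hA.eigenvectorUnitary : Matrix ι ι ℂ)ᴴ * Z * (hA.eigenvectorUnitary : Matrix ι ι ℂ)) k l‖ ^ 2

/-- the weight `J G(w,b)` with `b = log(1+1/N)`: `b * logmean (N x) ((N+1) y)`.
With `Z_{kl} = ⟨u_k, Z u_l⟩`, `x = p_k`, `y = p_l`. -/
def Wt (N x y : ℝ) : ℝ := Real.log (1 + 1 / N) * lm (N * x) ((N + 1) * y)

/-- `g'(N) = log (1 + 1/N)` -/
def bb (N : ℝ) : ℝ := Real.log (1 + 1 / N)

end matrices

/-! ### ladder matrices -/

section ladder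

variable {ι ι' κ ε J : Type} [Fintype ι] [DecidableEq ι] [Fintype ι'] [DecidableEq ι']
  [Fintype κ] [DecidableEq κ] [Fintype ε] [DecidableEq ε] [Fintype J]

/-- `X_N(A) = (N+1) a A - N A a` -/
def Xl (N : ℝ) (a A : Matrix ι ι ℂ) : Matrix ι ι ℂ :=
  ((N + 1 : ℝ) : ℂ) • (a * A) - ((N : ℝ) : ℂ) • (A * a)

/-- `H = a + (1/b) [a, log A]` (`= (1/b) [a, log A + b n]` when `[a, n] = a`) -/
def ladH (b : ℝ) (a A : Matrix ι ι ℂ) : Matrix ι ι ℂ :=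
  a + ((1 / b : ℝ) : ℂ) • (a * Lg A - Lg A * a)

/-- `𝒢 = ∑_j Re Tr H_j† X_j` -/
def GG (N : ℝ) (a : J → Matrix ι ι ℂ) (A : Matrix ι ι ℂ) : ℝ :=
  ∑ j, ((ladH (bb N) (a j) A)ᴴ * Xl N (a j) A).trace.re

/-- the (truncated) thermal attenuator generator with loss rate `N+1`, gain rate `N` -/
def lind (N : ℝ) (a : J → Matrix ι ι ℂ) (A : Matrix ι ι ℂ) : Matrix ι ι ℂ :=
  ∑ j, (((N + 1 : ℝ) : ℂ) • (a j * A * (a j)ᴴ -
      (1 / 2 : ℂ) • ((a j)ᴴ * a j * A + A * ((a j)ᴴ * a j))) +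
    ((N : ℝ) : ℂ) • ((a j)ᴴ * A * a j -
      (1 / 2 : ℂ) • (a j * (a j)ᴴ * A + A * (a j * (a j)ᴴ))))

/-- the truncation defect of the commutation relation: `a†a + 1 - a a†` -/
def tp (a : Matrix ι ι ℂ) : Matrix ι ι ℂ := aᴴ * a + 1 - a * aᴴ

/-- number matrix `∑ a_j† a_j` -/
def nm (a : J → Matrix ι ι ℂ) : Matrix ι ι ℂ := ∑ j, (a j)ᴴ * a j

/-- a truncated lowering family: `[a_j, n] = a_j`, the defect `tp a_j` is positive and killed by
`a_j` from the right -/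
structure Ladder (a : J → Matrix ι ι ℂ) : Prop where
  comm_nm : ∀ j, a j * nm a - nm a * a j = a j
  tp_pos : ∀ j, (tp (a j)).PosSemidef
  tp_mul : ∀ j, tp (a j) * a j = 0
  tr_zero : ∀ j, (a j).trace = 0

/-- Everything that is used about the beam splitter: `W` is an isometry which intertwines the
lowering matrices with an orthogonal `2 x 2` matrix. -/
structure Split (s t s' t' : ℝ) (a : J → Matrix ι ι ℂ) (b : J → Matrix ι' ι' ℂ)
    (c : J → Matrix κ κ ℂ) (d : J → Matrix ε ε ℂ) (W : Matrix (κ × ε) (ι × ι') ℂ) : Prop where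
  row1 : s ^ 2 + t ^ 2 = 1
  row2 : s' ^ 2 + t' ^ 2 = 1
  col1 : s ^ 2 + s' ^ 2 = 1
  col2 : t ^ 2 + t' ^ 2 = 1
  rows : s * s' + t * t' = 0
  cols : s * t + s' * t' = 0
  la : Ladder a
  lb : Ladder b
  lc : Ladder c
  ld : Ladder d
  iso : Wᴴ * W = 1
  hc : ∀ j, (c j ⊗ₖ (1 : Matrix ε ε ℂ)) * W =
    W * (((s : ℝ) : ℂ) • (a j ⊗ₖ (1 : Matrix ι' ι' ℂ)) + ((t : ℝ) : ℂ) • ((1 : Matrix ι ι ℂ) ⊗ₖ b j))
  hd : ∀ j, ((1 : Matrix κ κ ℂ) ⊗ₖ d j) * W =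
    W * (((s' : ℝ) : ℂ) • (a j ⊗ₖ (1 : Matrix ι' ι' ℂ)) + ((t' : ℝ) : ℂ) • ((1 : Matrix ι ι ℂ) ⊗ₖ b j))

end ladder

/-! ### Fock space -/

section fock

variable {n : ℕ}

/-- truncated lowering matrix of mode `j` -/
def low (X : ℕ) (j : Fin n) : Matrix (Ct n X) (Ct n X) ℂ := fun k l =>
  if l.1 = up k.1 j then ((Real.sqrt (l.1 j) : ℝ) : ℂ) else 0

/-- the beam splitter of transmissivity `η` on at most `D` photons in each input -/
def bsW (n : ℕ) (η : ℝ) (D : ℕ) :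
    Matrix (Ct n (2 * D) × Ct n (2 * D)) (Ct n D × Ct n D) ℂ := fun x y =>
  ((ampn (Real.sqrt η) (Real.sqrt (1 - η)) x.1.1 x.2.1 y.1.1 y.2.1 : ℝ) : ℂ)

/-- total photon number of a configuration -/
def tot {X : ℕ} (k : Ct n X) : ℝ := ((∑ j, k.1 j : ℕ) : ℝ)

/-- mean photon number of a matrix -/
def enr {X : ℕ} (A : Matrix (Ct n X) (Ct n X) ℂ) : ℝ := ∑ k, tot k * (A k k).re

/-- the diagonal matrix of a function of the total photon number -/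
def fnum (X : ℕ) (v : ℕ → ℝ) : Matrix (Ct n X) (Ct n X) ℂ :=
  diagonal fun k : Ct n X => ((v (∑ j, k.1 j) : ℝ) : ℂ)

/-- the thermal matrix of mean photon number `M` per mode, cut to at most `X` photons -/
def thm (n X : ℕ) (M : ℝ) : Matrix (Ct n X) (Ct n X) ℂ :=
  diagonal fun k : Ct n X => (((1 / (M + 1)) ^ n * (M / (M + 1)) ^ (∑ j, k.1 j) : ℝ) : ℂ)

end fock

end

end Vale.Agent.P369.FD
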