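import Vale.Agent.P369.FD.Stmts

/-!
P369, finite-matrix track (FD): sub-packages of MAIN.
-/

set_option linter.all false

namespace Vale.Agent.P369.FD

open Matrix
open Vale.Agent.P369 (Conf up down ampn g)
open Vale.Agent.P369A (Ct)
open Vale.Agent.P369.H712 (lm)
open scoped Kronecker ComplexOrder

noncomputable section

/-- MAIN-LG: `|log C| ≤ D + 1` for `C = C₀ + e_D`, `C₀` a density matrix -/
def S_LG : Prop := ∀ (κ : Type) [Fintype κ] [DecidableEq κ] (D : ℕ) (C₀ C : Matrix κ κ ℂ),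
  IsDM C₀ → C = C₀ + ((eD D : ℝ) : ℂ) • 1 →
  C.PosDef ∧ (((((D : ℝ) + 1) ^ 2 : ℝ) : ℂ) • (1 : Matrix κ κ ℂ) - Lg C * Lg C).PosSemidef

/-- MAIN-HB: bound for `H = c + (1/b)[c, log C]`: `‖H‖ ≤ √X (1 + 2 L / b)` -/
def S_HB : Prop := ∀ (n X : ℕ) (j : Fin n) (C : Matrix (Ct n X) (Ct n X) ℂ) (L bM h : ℝ),
  C.PosDef → 0 ≤ L → 0 < bM →
  (((L ^ 2 : ℝ) : ℂ) • (1 : Matrix (Ct n X) (Ct n X) ℂ) - Lg C * Lg C).PosSemidef →
  h = Real.sqrt X * (1 + 2 * L / bM) →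
  (((h ^ 2 : ℝ) : ℂ) • (1 : Matrix (Ct n X) (Ct n X) ℂ) -
    ladH bM (low X j) C * (ladH bM (low X j) C)ᴴ).PosSemidef ∧
  |((low X j)ᴴ * ladH bM (low X j) C).trace.re| ≤ (Fintype.card (Ct n X) : ℝ) * (Real.sqrt X * h)

/-- MAIN-CARD: polynomial dimension -/
def S_CARD : Prop := ∀ (n X : ℕ), (Fintype.card (Ct n X) : ℝ) ≤ ((X : ℝ) + 1) ^ n

/-- MAIN-LOW: elementary bounds for a density matrix `A` on `Ct n D`. -/
def S_LOW : Prop := ∀ (n D : ℕ) (A : Matrix (Ct n D) (Ct n D) ℂ), IsDM A →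
  (∀ j, (A * (low D j * (low D j)ᴴ)).trace.re ≤ enr A + 1) ∧
  (∀ j, ‖(A * low D j).trace‖ ^ 2 ≤ enr A) ∧
  (∀ j, 0 ≤ (A * tp (low D j)).trace.re) ∧
  (∀ (j) (lam : ℝ), 1 < lam →
    (A * tp (low D j)).trace.re ≤ ((D : ℝ) + 1) / lam ^ D * (fnum D (fun k => lam ^ k) * A).trace.re) ∧
  (nm (low (n := n) D) * A).trace.re = enr A ∧
  (∀ lam : ℝ, 1 < lam → 1 ≤ (fnum D (fun k => lam ^ k) * A).trace.re)

/-- MAIN-PEN: the truncated thermal generator does not increase `λ^n` too much; the bound does not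
depend on the cutoff -/
def S_PEN : Prop := ∀ (n : ℕ) (N lam : ℝ), 0 < N → 1 < lam → lam < 1 + 1 / N →
  ∃ CV : ℝ, 0 ≤ CV ∧ ∀ (D : ℕ) (A : Matrix (Ct n D) (Ct n D) ℂ), IsDM A →
    (fnum D (fun k => lam ^ k) * lind N (low D) A).trace.re ≤ CV

/-- MAIN-EB: uniform bounds at a minimiser (competitor: the vacuum) -/
def S_EB : Prop := ∀ (n : ℕ) (η NA NB δ lam : ℝ), 0 < η → η < 1 → 0 < NA → 0 < NB → 0 < δ → 1 < lam →
  ∃ K : ℝ, 0 < K ∧ ∀ (D : ℕ), 1 ≤ D → ∀ (A B : Matrix (Ct n D) (Ct n D) ℂ), IsDM A → IsDM B →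
    (∀ A' B', IsDM A' → IsDM B' → FD n η NA NB δ lam D A B ≤ FD n η NA NB δ lam D A' B') →
    enr A ≤ K ∧ enr B ≤ K ∧
    wD lam D * (fnum D (fun k => lam ^ k) * A).trace.re ≤ K ∧
    wD lam D * (fnum D (fun k => lam ^ k) * B).trace.re ≤ K

/-- MAIN-RAW: VAR + DP + OI + FIRST (twice) + SUM + CHAIN for the Fock matrices, no estimates yet.
`L` bounds `|log C|`, `h` bounds the `H_j`. -/
def S_RAW : Prop := ∀ (n : ℕ) (η NA NB δ lam : ℝ), 0 < η → η < 1 → 0 < NA → 0 < NB → 0 < δ →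
  1 < lam → ∀ D : ℕ,
    ∃ (A B : Matrix (Ct n D) (Ct n D) ℂ) (C : Matrix (Ct n (2 * D)) (Ct n (2 * D)) ℂ)
      (hA : A.PosDef) (hB : B.PosDef) (hC : C.PosDef), A.trace = 1 ∧ B.trace = 1 ∧
      C = outp (bsW n η D) A B + ((eD D : ℝ) : ℂ) • 1 ∧
      (∀ A' B', IsDM A' → IsDM B' →
        FD n η NA NB δ lam D A B ≤ FD n η NA NB δ lam D A' B') ∧
      ∀ (L h : ℝ), 0 ≤ L → 0 ≤ h →
      (((L ^ 2 : ℝ) : ℂ) • (1 : Matrix (Ct n (2 * D)) (Ct n (2 * D)) ℂ) - Lg C * Lg C).PosSemidef →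
      (∀ j, (((h ^ 2 : ℝ) : ℂ) • (1 : Matrix (Ct n (2 * D)) (Ct n (2 * D)) ℂ) -
        ladH (bb (η * NA + (1 - η) * NB)) (low (2 * D) j) C *
          (ladH (bb (η * NA + (1 - η) * NB)) (low (2 * D) j) C)ᴴ).PosSemidef) →
      δ * ∑ j, dform (fun x y => 1 / (x + y)) hC.isHermitian
          (Xl (η * NA + (1 - η) * NB) (low (2 * D) j) C -
            ((outp (bsW n η D) A B * low (2 * D) j).trace / C.trace) • C) +
        (1 + δ) * δ * ∑ j, (η * ‖(A * low D j).trace‖ ^ 2 + (1 - η) * ‖(B * low D j).trace‖ ^ 2) ≤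
      (1 + δ) * (wD lam D * (fnum D (fun k => lam ^ k) * lind NA (low D) A).trace.re +
        wD lam D * (fnum D (fun k => lam ^ k) * lind NB (low D) B).trace.re +
        NA * L / bb (η * NA + (1 - η) * NB) * ∑ j, Real.sqrt (A * (low D j * (low D j)ᴴ)).trace.re *
          Real.sqrt (A * tp (low D j)).trace.re +
        NB * L / bb (η * NA + (1 - η) * NB) * ∑ j, Real.sqrt (B * (low D j * (low D j)ᴴ)).trace.re *
          Real.sqrt (B * tp (low D j)).trace.re +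
        h * (η * NA + (1 - η) * NB + |NB - NA|) *
          ∑ j, Real.sqrt ((A * tp (low D j)).trace.re + (B * tp (low D j)).trace.re) +
        eD D * |∑ j, ((low (2 * D) j)ᴴ * ladH (bb (η * NA + (1 - η) * NB)) (low (2 * D) j) C).trace.re| +
        eD D * (Fintype.card (Ct n (2 * D)) : ℝ) *
          ∑ j, ‖(outp (bsW n η D) A B * low (2 * D) j).trace‖ ^ 2)

end

end Vale.Agent.P369.FD
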