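import Vale.Agent.P369.FD.Defs

/-!
P369, finite-matrix track (FD): one statement per package, as `Prop`-valued definitions.
The owner of package `XX` proves `theorem thm_XX : S_XX`.
-/

set_option linter.all false

namespace Vale.Agent.P369.FD

open Matrix
open Vale.Agent.P369 (Conf up down ampn g)
open Vale.Agent.P369A (Ct)
open Vale.Agent.P369.H712 (lm)
open scoped Kronecker ComplexOrder

noncomputable section

/-- the functional: `T_C Tr f(C + e) + Tr P_A A + Tr P_B B - s_A S(A) - s_B S(B)` -/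
def Fun {ι ι' κ ε : Type} [Fintype ι] [DecidableEq ι] [Fintype ι'] [DecidableEq ι']
    [Fintype κ] [DecidableEq κ] [Fintype ε] [DecidableEq ε]
    (W : Matrix (κ × ε) (ι × ι') ℂ) (TC sA sB e : ℝ) (PA : Matrix ι ι ℂ) (PB : Matrix ι' ι' ℂ)
    (A : Matrix ι ι ℂ) (B : Matrix ι' ι' ℂ) : ℝ :=
  TC * ent (outp W A B + ((e : ℝ) : ℂ) • (1 : Matrix κ κ ℂ)) + (PA * A).trace.re +
    (PB * B).trace.re - sA * ent A - sB * ent B

/-- package BS: the beam splitter -/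
def S_BS : Prop := ∀ (n : ℕ) (η : ℝ), 0 ≤ η → η ≤ 1 → ∀ D : ℕ,
  Split (Real.sqrt η) (Real.sqrt (1 - η)) (-Real.sqrt (1 - η)) (Real.sqrt η)
    (low (n := n) D) (low (n := n) D) (low (n := n) (2 * D)) (low (n := n) (2 * D)) (bsW n η D)

/-- package DP: data processing in the two GNS forms, for the two inputs together -/
def S_DP : Prop := ∀ (ι ι' κ ε : Type) [Fintype ι] [DecidableEq ι] [Fintype ι'] [DecidableEq ι']
    [Fintype κ] [DecidableEq κ] [Fintype ε] [DecidableEq ε]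
    (W : Matrix (κ × ε) (ι × ι') ℂ), Wᴴ * W = 1 →
    ∀ (A : Matrix ι ι ℂ) (B : Matrix ι' ι' ℂ), IsDM A → IsDM B → ∀ Z : Matrix κ κ ℂ,
    (A * ((EAc W A B Z)ᴴ * EAc W A B Z)).trace.re + (B * ((EBc W A B Z)ᴴ * EBc W A B Z)).trace.re ≤
        (outp W A B * (Zᴴ * Z)).trace.re ∧
    (A * (EAc W A B Z * (EAc W A B Z)ᴴ)).trace.re + (B * (EBc W A B Z * (EBc W A B Z)ᴴ)).trace.re ≤
        (outp W A B * (Z * Zᴴ)).trace.re

/-- package VAR: existence of a positive definite minimiser, Euler-Lagrange equation, second order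
condition in dual form -/
def S_VAR : Prop := ∀ (ι ι' κ ε : Type) [Fintype ι] [DecidableEq ι] [Nonempty ι]
    [Fintype ι'] [DecidableEq ι'] [Nonempty ι'] [Fintype κ] [DecidableEq κ] [Fintype ε]
    [DecidableEq ε] (W : Matrix (κ × ε) (ι × ι') ℂ), Wᴴ * W = 1 →
    ∀ (TC sA sB e : ℝ), 0 < TC → 0 < sA → 0 < sB → 0 < e →
    ∀ (PA : Matrix ι ι ℂ) (PB : Matrix ι' ι' ℂ), PA.IsHermitian → PB.IsHermitian →
    ∃ (A : Matrix ι ι ℂ) (B : Matrix ι' ι' ℂ) (C : Matrix κ κ ℂ)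
      (hA : A.PosDef) (hB : B.PosDef) (hC : C.PosDef),
      A.trace = 1 ∧ B.trace = 1 ∧ C = outp W A B + ((e : ℝ) : ℂ) • (1 : Matrix κ κ ℂ) ∧
      (∀ A' B', IsDM A' → IsDM B' → Fun W TC sA sB e PA PB A B ≤ Fun W TC sA sB e PA PB A' B') ∧
      (∃ l : ℝ, ((sA : ℝ) : ℂ) • Lg A = ((TC : ℝ) : ℂ) • EA W B (Lg C) - PA + ((l : ℝ) : ℂ) • 1) ∧
      (∃ l : ℝ, ((sB : ℝ) : ℂ) • Lg B = ((TC : ℝ) : ℂ) • EB W A (Lg C) - PB + ((l : ℝ) : ℂ) • 1) ∧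
      (∀ Z, dform lm hA.isHermitian (EAc W A B Z) ≤ sA / TC * dform lm hC.isHermitian Z) ∧
      (∀ Z, dform lm hB.isHermitian (EBc W A B Z) ≤ sB / TC * dform lm hC.isHermitian Z)

/-- package OI: the operator inequality, scaled form with room, for finite matrices.
(`f_i = η_i b_M / b_i`.) -/
def S_OI : Prop := ∀ (ι ι' κ : Type) [Fintype ι] [DecidableEq ι] [Fintype ι'] [DecidableEq ι']
    [Fintype κ] [DecidableEq κ] (A : Matrix ι ι ℂ) (B : Matrix ι' ι' ℂ) (C : Matrix κ κ ℂ)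
    (hA : A.PosDef) (hB : B.PosDef) (hC : C.PosDef)
    (TA : Matrix κ κ ℂ →ₗ[ℂ] Matrix ι ι ℂ) (TB : Matrix κ κ ℂ →ₗ[ℂ] Matrix ι' ι' ℂ)
    (η₁ η₂ NA NB δ : ℝ), 0 < η₁ → 0 < η₂ → η₁ + η₂ = 1 → 0 < NA → 0 < NB → 0 ≤ δ →
    (∀ Z, dform (fun x _ => x) hA.isHermitian (TA Z) + dform (fun x _ => x) hB.isHermitian (TB Z) ≤
      dform (fun x _ => x) hC.isHermitian Z) →
    (∀ Z, dform (fun _ y => y) hA.isHermitian (TA Z) + dform (fun _ y => y) hB.isHermitian (TB Z) ≤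
      dform (fun _ y => y) hC.isHermitian Z) →
    (∀ Z, dform lm hA.isHermitian (TA Z) ≤
      (1 + δ) * (η₁ * bb (η₁ * NA + η₂ * NB) / bb NA) * dform lm hC.isHermitian Z) →
    (∀ Z, dform lm hB.isHermitian (TB Z) ≤
      (1 + δ) * (η₂ * bb (η₁ * NA + η₂ * NB) / bb NB) * dform lm hC.isHermitian Z) →
    ∀ Z, dform (Wt NA) hA.isHermitian (TA Z) + dform (Wt NB) hB.isHermitian (TB Z) ≤
      (1 + δ) * dform (Wt (η₁ * NA + η₂ * NB)) hC.isHermitian Z -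
        δ * dform (fun x y => Wt (η₁ * NA + η₂ * NB) x y ^ 2 / (x + y)) hC.isHermitian Z

/-- package FIRST: the Euler-Lagrange equation tested on the truncated thermal flow of input `A`.
(`Q` = the extra penalty; for input `B` apply it to `sw W`.) -/
def S_FIRST : Prop := ∀ (ι ι' κ ε J : Type) [Fintype ι] [DecidableEq ι] [Fintype ι']
    [DecidableEq ι'] [Fintype κ] [DecidableEq κ] [Fintype ε] [DecidableEq ε] [Fintype J]
    (s t s' t' : ℝ) (a : J → Matrix ι ι ℂ) (b : J → Matrix ι' ι' ℂ) (c : J → Matrix κ κ ℂ)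
    (d : J → Matrix ε ε ℂ) (W : Matrix (κ × ε) (ι × ι') ℂ), Split s t s' t' a b c d W →
    ∀ (A : Matrix ι ι ℂ) (B : Matrix ι' ι' ℂ) (C : Matrix κ κ ℂ), A.PosDef → B.PosDef → C.PosDef →
    A.trace = 1 → B.trace = 1 →
    ∀ (N bM δ L l : ℝ) (Q : Matrix ι ι ℂ), 0 < N → 0 < bM → 0 ≤ δ → 0 ≤ L → Q.IsHermitian →
    (((L ^ 2 : ℝ) : ℂ) • (1 : Matrix κ κ ℂ) - Lg C * Lg C).PosSemidef →
    (((1 + δ) * s ^ 2 / bb N : ℝ) : ℂ) • Lg A =
      ((1 / bM : ℝ) : ℂ) • EA W B (Lg C) - (((δ * s ^ 2 : ℝ) : ℂ) • nm a + Q) + ((l : ℝ) : ℂ) • 1 →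
    (1 + δ) * s ^ 2 * GG N a A ≤
      s * ∑ j, ((Xl N (a j) A)ᴴ * EA W B (ladH bM (c j) C)).trace.re -
        s * t * ∑ j, (star (A * a j).trace * (B * b j).trace).re +
        (Q * lind N a A).trace.re +
        N * L / bM * ∑ j, Real.sqrt (A * (a j * (a j)ᴴ)).trace.re * Real.sqrt (A * tp (a j)).trace.re

/-- package SUM: the sum rule for `X_N = (N+1) a ρ - N ρ a`, with the truncation error -/
def S_SUM : Prop := ∀ (ι ι' κ ε J : Type) [Fintype ι] [DecidableEq ι] [Fintype ι']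
    [DecidableEq ι'] [Fintype κ] [DecidableEq κ] [Fintype ε] [DecidableEq ε] [Fintype J]
    (s t s' t' : ℝ) (a : J → Matrix ι ι ℂ) (b : J → Matrix ι' ι' ℂ) (c : J → Matrix κ κ ℂ)
    (d : J → Matrix ε ε ℂ) (W : Matrix (κ × ε) (ι × ι') ℂ), Split s t s' t' a b c d W →
    ∀ (A : Matrix ι ι ℂ) (B : Matrix ι' ι' ℂ), IsDM A → IsDM B →
    ∀ (NA NB h : ℝ) (H : J → Matrix κ κ ℂ), 0 ≤ NA → 0 ≤ NB → 0 ≤ h →
    (∀ j, (((h ^ 2 : ℝ) : ℂ) • (1 : Matrix κ κ ℂ) - H j * (H j)ᴴ).PosSemidef) →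
    |s * ∑ j, ((Xl NA (a j) A)ᴴ * EA W B (H j)).trace.re +
        t * ∑ j, ((Xl NB (b j) B)ᴴ * EB W A (H j)).trace.re -
        ∑ j, ((Xl (s ^ 2 * NA + t ^ 2 * NB) (c j) (outp W A B))ᴴ * H j).trace.re| ≤
      h * (s ^ 2 * NA + t ^ 2 * NB + |NB - NA|) *
        ∑ j, Real.sqrt ((A * tp (a j)).trace.re + (B * tp (b j)).trace.re)

/-- package CHAIN: FIRST + SUM + OI give the main inequality.  `S = ∑_i s_i ∑_j Re Tr X_ij† E_i(H_j)`. -/
def S_CHAIN : Prop := ∀ (ι ι' κ ε J : Type) [Fintype ι] [DecidableEq ι] [Fintype ι']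
    [DecidableEq ι'] [Fintype κ] [DecidableEq κ] [Fintype ε] [DecidableEq ε] [Fintype J]
    (s t s' t' : ℝ) (a : J → Matrix ι ι ℂ) (b : J → Matrix ι' ι' ℂ) (c : J → Matrix κ κ ℂ)
    (d : J → Matrix ε ε ℂ) (W : Matrix (κ × ε) (ι × ι') ℂ), Split s t s' t' a b c d W →
    ∀ (A : Matrix ι ι ℂ) (B : Matrix ι' ι' ℂ) (C : Matrix κ κ ℂ)
    (hA : A.PosDef) (hB : B.PosDef) (hC : C.PosDef), A.trace = 1 → B.trace = 1 →
    ∀ (NA NB M δ e S E1A E1B E2 qA qB : ℝ), 0 < NA → 0 < NB → M = s ^ 2 * NA + t ^ 2 * NB →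
    0 < M → 0 ≤ δ → 0 ≤ e → C = outp W A B + ((e : ℝ) : ℂ) • (1 : Matrix κ κ ℂ) →
    (∀ Z, dform (Wt NA) hA.isHermitian (EAc W A B Z) + dform (Wt NB) hB.isHermitian (EBc W A B Z) ≤
      (1 + δ) * dform (Wt M) hC.isHermitian Z -
        δ * dform (fun x y => Wt M x y ^ 2 / (x + y)) hC.isHermitian Z) →
    S = s * ∑ j, ((Xl NA (a j) A)ᴴ * EA W B (ladH (bb M) (c j) C)).trace.re +
        t * ∑ j, ((Xl NB (b j) B)ᴴ * EB W A (ladH (bb M) (c j) C)).trace.re →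
    (1 + δ) * s ^ 2 * GG NA a A ≤ s * ∑ j, ((Xl NA (a j) A)ᴴ * EA W B (ladH (bb M) (c j) C)).trace.re -
      s * t * ∑ j, (star (A * a j).trace * (B * b j).trace).re + qA + E1A →
    (1 + δ) * t ^ 2 * GG NB b B ≤ t * ∑ j, ((Xl NB (b j) B)ᴴ * EB W A (ladH (bb M) (c j) C)).trace.re -
      s * t * ∑ j, (star (A * a j).trace * (B * b j).trace).re + qB + E1B →
    |S - ∑ j, ((Xl M (c j) (outp W A B))ᴴ * ladH (bb M) (c j) C).trace.re| ≤ E2 →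
    δ * ∑ j, dform (fun x y => 1 / (x + y)) hC.isHermitian
        (Xl M (c j) C - ((outp W A B * c j).trace / C.trace) • C) +
      (1 + δ) * δ * ∑ j, (s ^ 2 * ‖(A * a j).trace‖ ^ 2 + t ^ 2 * ‖(B * b j).trace‖ ^ 2) ≤
    (1 + δ) * (qA + qB + E1A + E1B + E2 + e * |∑ j, ((c j)ᴴ * ladH (bb M) (c j) C).trace.re| +
      e * (Fintype.card κ : ℝ) * ∑ j, ‖(outp W A B * c j).trace‖ ^ 2)

/-- package GIBBS: `S(A) ≤ b_N (E - nN) + n g(N)` -/
def S_GIBBS : Prop := ∀ (n X : ℕ) (A : Matrix (Ct n X) (Ct n X) ℂ), IsDM A → ∀ N : ℝ, 0 < N →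
  ent A ≤ bb N * (enr A - n * N) + n * g N

/-- the regularisation `e_D = exp (-D)` -/
def eD (D : ℕ) : ℝ := Real.exp (-(D : ℝ))

/-- the weight of the exponential penalty, `λ^(-D/2)` -/
def wD (lam : ℝ) (D : ℕ) : ℝ := (Real.sqrt lam ^ D)⁻¹

/-- penalty matrix `δ η n + λ^(-D/2) λ^n` -/
def pD (n : ℕ) (δη lam : ℝ) (D : ℕ) : Matrix (Ct n D) (Ct n D) ℂ :=
  fnum D (fun k => δη * k + wD lam D * lam ^ k)

/-- the functional on pairs of density matrices on at most `D` photons -/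
def FD (n : ℕ) (η NA NB δ lam : ℝ) (D : ℕ) (A B : Matrix (Ct n D) (Ct n D) ℂ) : ℝ :=
  Fun (bsW n η D) (1 / bb (η * NA + (1 - η) * NB)) ((1 + δ) * η / bb NA)
    ((1 + δ) * (1 - η) / bb NB) (eD D) (pD n (δ * η) lam D) (pD n (δ * (1 - η)) lam D) A B

/-- package MAIN (= VAR + OI + DP + FIRST + SUM + CHAIN + estimates ERR, for the Fock matrices): the
minimiser of `FD` satisfies the thermal equation up to an exponentially small error -/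
def S_MAIN : Prop := ∀ (n : ℕ) (η NA NB δ lam : ℝ), 0 < η → η < 1 → 0 < NA → 0 < NB → 0 < δ →
  1 < lam → lam < 1 + 1 / NA → lam < 1 + 1 / NB →
  ∃ (K ρ : ℝ), 0 < K ∧ 0 < ρ ∧ ρ < 1 ∧ ∀ D : ℕ, 1 ≤ D →
    ∃ (A B : Matrix (Ct n D) (Ct n D) ℂ) (C : Matrix (Ct n (2 * D)) (Ct n (2 * D)) ℂ)
      (hA : A.PosDef) (hB : B.PosDef) (hC : C.PosDef), A.trace = 1 ∧ B.trace = 1 ∧
      C = outp (bsW n η D) A B + ((eD D : ℝ) : ℂ) • 1 ∧
      (∀ A' B', IsDM A' → IsDM B' →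
        FD n η NA NB δ lam D A B ≤ FD n η NA NB δ lam D A' B') ∧
      enr A ≤ K ∧ enr B ≤ K ∧
      (∀ j, ‖(A * low D j).trace‖ ^ 2 ≤ K * ρ ^ D) ∧ (∀ j, ‖(B * low D j).trace‖ ^ 2 ≤ K * ρ ^ D) ∧
      ∀ j, dform (fun x y => 1 / (x + y)) hC.isHermitian
        (Xl (η * NA + (1 - η) * NB) (low (2 * D) j) C -
          ((outp (bsW n η D) A B * low (2 * D) j).trace / C.trace) • C) ≤ K * ρ ^ D

/-- package END: matrices that nearly satisfy the thermal equation have nearly thermal energy and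
at least nearly thermal entropy -/
def S_END : Prop := ∀ (n : ℕ) (M K ρ : ℝ), 0 < M → 0 < K → 0 < ρ → ρ < 1 → ∀ τ : ℝ, 0 < τ →
  ∃ D₀ : ℕ, ∀ D : ℕ, D₀ ≤ D → ∀ (C₀ C : Matrix (Ct n (2 * D)) (Ct n (2 * D)) ℂ), IsDM C₀ →
    C = C₀ + ((eD D : ℝ) : ℂ) • 1 → ∀ hC : C.PosDef, enr C₀ ≤ K →
    (∀ j, ‖(C₀ * low (2 * D) j).trace‖ ^ 2 ≤ K * ρ ^ D) →
    (∀ j, dform (fun x y => 1 / (x + y)) hC.isHermitian
      (Xl M (low (2 * D) j) C - ((C₀ * low (2 * D) j).trace / C.trace) • C) ≤ K * ρ ^ D) →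
    enr C₀ ≤ n * M + τ ∧ n * g M - τ ≤ ent C

/-- package LIM: the linearised inequality for all density matrices with finitely many photons -/
def S_LIN : Prop := ∀ (n : ℕ) (η NA NB : ℝ), 0 < η → η < 1 → 0 < NA → 0 < NB → ∀ (D : ℕ)
  (A B : Matrix (Ct n D) (Ct n D) ℂ), IsDM A → IsDM B →
  n * (g (η * NA + (1 - η) * NB) / bb (η * NA + (1 - η) * NB) - η * (g NA / bb NA) -
      (1 - η) * (g NB / bb NB)) ≤
    ent (outp (bsW n η D) A B) / bb (η * NA + (1 - η) * NB) - η * (ent A / bb NA) -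
      (1 - η) * (ent B / bb NB)

/-- package LIM -/
def S_LIM : Prop := S_BS → S_MAIN → S_END → S_GIBBS → S_LIN

end

end Vale.Agent.P369.FD
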